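import Vale.Agent.P154.D8.K6.Data
import Vale.Agent.P154.ApxLemma

set_option maxRecDepth 100000

namespace Vale.Agent.P154.D8.K6

open PolyR Cert InT OutT

/-- The quotient polynomial for `j = 1`. -/
noncomputable def S1 (u : ℝ) : ℝ :=
  (-5 / 16777216 : ℝ) * u ^ 0 + (261 / 8388608 : ℝ) * u ^ 1 + (2695 / 16777216 : ℝ) * u ^ 2 + (-102271 / 16777216 : ℝ) * u ^ 3 + (-1103 / 2097152 : ℝ) * u ^ 4 + (4455325 / 16777216 : ℝ) * u ^ 5 + (-6208753 / 8388608 : ℝ) * u ^ 6

/-- Certificate polynomial. -/
def lpu1 : List ITm := [⟨(-633463059784844517707824707031250),0,0⟩,⟨3681192742078565061092376708984375,1,0⟩,⟨4915865018194913864135742187500000,2,0⟩,⟨(-46702399691792954429626464843750000),3,0⟩,⟨(-1008782889469483376274609375000000),4,0⟩,⟨127513777524831487330817164382812500,5,0⟩,⟨(-88972872994612532209813380355992228),6,0⟩]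

/-- Certificate tree. -/
def tpu1 : OutT := (A (A (A (O l) (A (O l) (A (O l) (O l)))) (A (A (A (O l) (O l)) (A (O l) (O l))) (A (O l) (O l)))) (A (A (A (O l) (O l)) (A (O l) (A (O l) (O l)))) (A (A (A (O l) (O l)) (A (A (O l) (O l)) (A (A (O l) (O l)) (A (O l) (O l))))) (A (A (A (A (O l) (O l)) (A (O l) (O l))) (A (A (O l) (O l)) (A (O l) (O l)))) (A (A (O l) (O l)) (A (O l) (O l)))))))

theorem hpu1 (x : ℝ) (h0 : 0 ≤ x) (h1 : x ≤ 1) : evalIL lpu1 x 0 ≤ 0 :=
  uni_le 6 65536 lpu1 (by norm_num) (by norm_num) (by decide +kernel)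
    (chkOut_sound (uniPb 6 65536 lpu1) tpu1 0 32768 0 32768 (by decide +kernel)) x h0 h1

/-- Certificate polynomial. -/
def lpl1 : List ITm := [⟨(-342424755217507481575012207031250),0,0⟩,⟨(-3925505085499025881290435791015625),1,0⟩,⟨(-4915865018194913864135742187500000),2,0⟩,⟨46702399691792954429626464843750000,3,0⟩,⟨1008782889469483376274609375000000,4,0⟩,⟨(-127513777524831487330817164382812500),5,0⟩,⟨88972872994612532209813380355992228,6,0⟩]

/-- Certificate tree. -/
def tpl1 : OutT := (A (A (A (O l) (O l)) (A (O l) (A (O l) (A (O l) (O l))))) (A (A (A (A (O l) (A (O l) (O l))) (A (A (O l) (A (O l) (O l))) (A (A (O l) (O l)) (A (O l) (O l))))) (A (A (A (A (O l) (O l)) (A (O l) (O l))) (A (O l) (O l))) (A (A (O l) (O l)) (O l)))) (A (A (A (O l) (O l)) (A (O l) (O l))) (A (A (O l) (O l)) (A (O l) (A (O l) (A (O l) (A (O l) (O l)))))))))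

theorem hpl1 (x : ℝ) (h0 : 0 ≤ x) (h1 : x ≤ 1) : evalIL lpl1 x 0 ≤ 0 :=
  uni_le 6 65536 lpl1 (by norm_num) (by norm_num) (by decide +kernel)
    (chkOut_sound (uniPb 6 65536 lpl1) tpl1 0 32768 0 32768 (by decide +kernel)) x h0 h1

/-- Certificate polynomial. -/
def lnu1 : List ITm := [⟨(-10135408956557512283325195312500000),0,0⟩,⟨(-29449541936628520488739013671875000),1,0⟩,⟨19663460072779655456542968750000000,2,0⟩,⟨93404799383585908859252929687500000,3,0⟩,⟨(-1008782889469483376274609375000000),4,0⟩,⟨(-63756888762415743665408582191406250),5,0⟩,⟨(-22243218248653133052453345088998057),6,0⟩]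

/-- Certificate tree. -/
def tnu1 : OutT := (A (O l) (A (A (O l) (A (O l) (O l))) (A (A (A (O l) (O l)) (A (O l) (O l))) (A (O l) (O l)))))

theorem hnu1 (x : ℝ) (h0 : 0 ≤ x) (h1 : x ≤ 1) : evalIL lnu1 x 0 ≤ 0 :=
  uni_le 6 65536 lnu1 (by norm_num) (by norm_num) (by decide +kernel)
    (chkOut_sound (uniPb 6 65536 lnu1) tnu1 0 32768 0 32768 (by decide +kernel)) x h0 h1

/-- Certificate polynomial. -/
def lnl1 : List ITm := [⟨(-5478796083480119705200195312500000),0,0⟩,⟨31404040683992207050323486328125000,1,0⟩,⟨(-19663460072779655456542968750000000),2,0⟩,⟨(-93404799383585908859252929687500000),3,0⟩,⟨1008782889469483376274609375000000,4,0⟩,⟨63756888762415743665408582191406250,5,0⟩,⟨22243218248653133052453345088998057,6,0⟩]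

/-- Certificate tree. -/
def tnl1 : OutT := (A (A (A (O l) (A (O l) (O l))) (A (A (O l) (A (O l) (O l))) (A (O l) (O l)))) (A (A (O l) (O l)) (A (O l) (A (O l) (A (O l) (A (O l) (O l)))))))

theorem hnl1 (x : ℝ) (h0 : 0 ≤ x) (h1 : x ≤ 1) : evalIL lnl1 x 0 ≤ 0 :=
  uni_le 6 65536 lnl1 (by norm_num) (by norm_num) (by decide +kernel)
    (chkOut_sound (uniPb 6 65536 lnl1) tnl1 0 32768 0 32768 (by decide +kernel)) x h0 h1

theorem apx1 (u : ℝ) (h0 : -(39117 / 312500 : ℝ) ≤ u) (h1 : u ≤ 2 * (39117 / 312500 : ℝ)) :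
    |((1 + u)⁻¹) ^ 1 - evalZ Ax.p1 (3 * u) / Ax.D1| ≤ Ax.e1 * |u| ^ Ax.m1 := by
  have hu : 0 < 1 + u := by norm_num at h0 ⊢; linarith
  refine apx_of_S 1 2 _ (S1 u) _ u hu ?_ ?_ ?_
  · simp only [Ax, evalZ_cons, evalZ_nil, S1]
    push_cast
    ring
  · rcases le_total 0 u with hs | hs
    · have hx := hpu1 (u / (2 * (39117 / 312500 : ℝ))) (by positivity) (by rw [div_le_one (by norm_num)]; exact h1)
      have e : evalIL lpu1 (u / (2 * (39117 / 312500 : ℝ))) 0 = 488281250000000000000000000000000000000 * (S1 u - Ax.e1 * (1 + u) ^ 1) := by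
        simp only [lpu1, evalIL, List.map_cons, List.map_nil, List.sum_cons, List.sum_nil, S1, Ax]
        push_cast
        ring
      rw [e] at hx
      have := cmul_nonpos (by norm_num) hx
      simp only [Ax] at this ⊢
      linarith
    · have hx := hnu1 (-u / (39117 / 312500 : ℝ)) (by apply div_nonneg <;> [linarith; norm_num]) (by rw [div_le_one (by norm_num)]; linarith)
      have e : evalIL lnu1 (-u / (39117 / 312500 : ℝ)) 0 = 7812500000000000000000000000000000000000 * (S1 u - Ax.e1 * (1 + u) ^ 1) := by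
        simp only [lnu1, evalIL, List.map_cons, List.map_nil, List.sum_cons, List.sum_nil, S1, Ax]
        push_cast
        ring
      rw [e] at hx
      have := cmul_nonpos (by norm_num) hx
      simp only [Ax] at this ⊢
      linarith
  · rcases le_total 0 u with hs | hs
    · have hx := hpl1 (u / (2 * (39117 / 312500 : ℝ))) (by positivity) (by rw [div_le_one (by norm_num)]; exact h1)
      have e : evalIL lpl1 (u / (2 * (39117 / 312500 : ℝ))) 0 = 488281250000000000000000000000000000000 * (-S1 u - Ax.e1 * (1 + u) ^ 1) := by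
        simp only [lpl1, evalIL, List.map_cons, List.map_nil, List.sum_cons, List.sum_nil, S1, Ax]
        push_cast
        ring
      rw [e] at hx
      have := cmul_nonpos (by norm_num) hx
      simp only [Ax] at this ⊢
      linarith
    · have hx := hnl1 (-u / (39117 / 312500 : ℝ)) (by apply div_nonneg <;> [linarith; norm_num]) (by rw [div_le_one (by norm_num)]; linarith)
      have e : evalIL lnl1 (-u / (39117 / 312500 : ℝ)) 0 = 7812500000000000000000000000000000000000 * (-S1 u - Ax.e1 * (1 + u) ^ 1) := by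
        simp only [lnl1, evalIL, List.map_cons, List.map_nil, List.sum_cons, List.sum_nil, S1, Ax]
        push_cast
        ring
      rw [e] at hx
      have := cmul_nonpos (by norm_num) hx
      simp only [Ax] at this ⊢
      linarith

/-- The quotient polynomial for `j = 2`. -/
noncomputable def S2 (u : ℝ) : ℝ :=
  (-19 / 8388608 : ℝ) * u ^ 0 + (2275 / 8388608 : ℝ) * u ^ 1 + (26561 / 16777216 : ℝ) * u ^ 2 + (-875453 / 16777216 : ℝ) * u ^ 3 + (-405199 / 8388608 : ℝ) * u ^ 4 + (38855623 / 16777216 : ℝ) * u ^ 5 + (-74459555 / 16777216 : ℝ) * u ^ 6 + (-48225467 / 8388608 : ℝ) * u ^ 7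

/-- Certificate polynomial. -/
def lpu2 : List ITm := [⟨(-827569124339788686484098434448242187500),0,0⟩,⟨4852128809034184087067842483520507812500,1,0⟩,⟨7529132826765187201090157032012939453125,2,0⟩,⟨(-62465404289490693436861038208007812500000),3,0⟩,⟨(-14476067331643287999457992553710937500000),4,0⟩,⟨173760726869347543748755282344287109375000,5,0⟩,⟨(-83361150206137993633819652150169623437500),6,0⟩,⟨(-27033060325702499496017280839396915841564),7,0⟩]

/-- Certificate tree. -/
def tpu2 : OutT := (A (A (A (O l) (A (A (O l) (O l)) (A (A (O l) (O l)) (A (O l) (O l))))) (A (A (A (A (O l) (O l)) (O l)) (A (O l) (O l))) (A (O l) (O l)))) (A (A (A (O l) (O l)) (A (O l) (A (O l) (O l)))) (A (A (A (O l) (O l)) (A (A (O l) (O l)) (A (A (O l) (O l)) (A (O l) (O l))))) (A (A (A (A (A (O l) (O l)) (A (O l) (O l))) (A (A (O l) (O l)) (A (O l) (O l)))) (A (A (A (O l) (O l)) (O l)) (A (O l) (O l)))) (A (A (O l) (O l)) (A (O l) (O l)))))))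

theorem hpu2 (x : ℝ) (h0 : 0 ≤ x) (h1 : x ≤ 1) : evalIL lpu2 x 0 ≤ 0 :=
  uni_le 7 65536 lpu2 (by norm_num) (by norm_num) (by decide +kernel)
    (chkOut_sound (uniPb 7 65536 lpu2) tpu2 0 32768 0 32768 (by decide +kernel)) x h0 h1

/-- Certificate polynomial. -/
def lpl2 : List ITm := [⟨(-481961137666075956076383590698242187500),0,0⟩,⟨(-5507807468347891699522733688354492187500),1,0⟩,⟨(-7611207009537584963254630565643310546875),2,0⟩,⟨62465404289490693436861038208007812500000,3,0⟩,⟨14476067331643287999457992553710937500000,4,0⟩,⟨(-173760726869347543748755282344287109375000),5,0⟩,⟨83361150206137993633819652150169623437500,6,0⟩,⟨27033060325702499496017280839396915841564,7,0⟩]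

/-- Certificate tree. -/
def tpl2 : OutT := (A (A (A (O l) (O l)) (A (O l) (A (O l) (A (O l) (O l))))) (A (A (A (A (O l) (A (O l) (O l))) (A (A (O l) (A (O l) (O l))) (A (A (O l) (O l)) (A (O l) (O l))))) (A (A (A (A (O l) (O l)) (O l)) (A (O l) (O l))) (A (A (O l) (O l)) (O l)))) (A (A (A (O l) (O l)) (A (O l) (O l))) (A (A (O l) (O l)) (A (O l) (A (O l) (A (O l) (A (O l) (O l)))))))))

theorem hpl2 (x : ℝ) (h0 : 0 ≤ x) (h1 : x ≤ 1) : evalIL lpl2 x 0 ≤ 0 :=
  uni_le 7 65536 lpl2 (by norm_num) (by norm_num) (by decide +kernel)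
    (chkOut_sound (uniPb 7 65536 lpl2) tpl2 0 32768 0 32768 (by decide +kernel)) x h0 h1

/-- Certificate polynomial. -/
def lnu2 : List ITm := [⟨(-26482211978873237967491149902343750000000),0,0⟩,⟨(-77634060944546945393085479736328125000000),1,0⟩,⟨60233062614121497608721256256103515625000,2,0⟩,⟨249861617157962773747444152832031250000000,3,0⟩,⟨(-28952134663286575998915985107421875000000),4,0⟩,⟨(-173760726869347543748755282344287109375000),5,0⟩,⟨(-41680575103068996816909826075084811718750),6,0⟩,⟨6758265081425624874004320209849228960391,7,0⟩]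

/-- Certificate tree. -/
def tnu2 : OutT := (A (O l) (A (A (O l) (A (O l) (O l))) (A (A (A (O l) (A (O l) (O l))) (A (A (O l) (O l)) (O l))) (A (A (O l) (O l)) (O l)))))

theorem hnu2 (x : ℝ) (h0 : 0 ≤ x) (h1 : x ≤ 1) : evalIL lnu2 x 0 ≤ 0 :=
  uni_le 7 65536 lnu2 (by norm_num) (by norm_num) (by decide +kernel)
    (chkOut_sound (uniPb 7 65536 lnu2) tnu2 0 32768 0 32768 (by decide +kernel)) x h0 h1

/-- Certificate polynomial. -/
def lnl2 : List ITm := [⟨(-15422756405314430594444274902343750000000),0,0⟩,⟨88124919493566267192363739013671875000000,1,0⟩,⟨(-60889656076300679706037044525146484375000),2,0⟩,⟨(-249861617157962773747444152832031250000000),3,0⟩,⟨28952134663286575998915985107421875000000,4,0⟩,⟨173760726869347543748755282344287109375000,5,0⟩,⟨41680575103068996816909826075084811718750,6,0⟩,⟨(-6758265081425624874004320209849228960391),7,0⟩]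

/-- Certificate tree. -/
def tnl2 : OutT := (A (A (A (O l) (A (O l) (O l))) (A (A (O l) (A (O l) (O l))) (A (O l) (O l)))) (A (A (O l) (O l)) (A (O l) (A (O l) (A (O l) (A (O l) (O l)))))))

theorem hnl2 (x : ℝ) (h0 : 0 ≤ x) (h1 : x ≤ 1) : evalIL lnl2 x 0 ≤ 0 :=
  uni_le 7 65536 lnl2 (by norm_num) (by norm_num) (by decide +kernel)
    (chkOut_sound (uniPb 7 65536 lnl2) tnl2 0 32768 0 32768 (by decide +kernel)) x h0 h1

theorem apx2 (u : ℝ) (h0 : -(39117 / 312500 : ℝ) ≤ u) (h1 : u ≤ 2 * (39117 / 312500 : ℝ)) :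
    |((1 + u)⁻¹) ^ 2 - evalZ Ax.p2 (3 * u) / Ax.D2| ≤ Ax.e2 * |u| ^ Ax.m2 := by
  have hu : 0 < 1 + u := by norm_num at h0 ⊢; linarith
  refine apx_of_S 2 2 _ (S2 u) _ u hu ?_ ?_ ?_
  · simp only [Ax, evalZ_cons, evalZ_nil, S2]
    push_cast
    ring
  · rcases le_total 0 u with hs | hs
    · have hx := hpu2 (u / (2 * (39117 / 312500 : ℝ))) (by positivity) (by rw [div_le_one (by norm_num)]; exact h1)
      have e : evalIL lpu2 (u / (2 * (39117 / 312500 : ℝ))) 0 = 76293945312500000000000000000000000000000000 * (S2 u - Ax.e2 * (1 + u) ^ 2) := by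
        simp only [lpu2, evalIL, List.map_cons, List.map_nil, List.sum_cons, List.sum_nil, S2, Ax]
        push_cast
        ring
      rw [e] at hx
      have := cmul_nonpos (by norm_num) hx
      simp only [Ax] at this ⊢
      linarith
    · have hx := hnu2 (-u / (39117 / 312500 : ℝ)) (by apply div_nonneg <;> [linarith; norm_num]) (by rw [div_le_one (by norm_num)]; linarith)
      have e : evalIL lnu2 (-u / (39117 / 312500 : ℝ)) 0 = 2441406250000000000000000000000000000000000000 * (S2 u - Ax.e2 * (1 + u) ^ 2) := by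
        simp only [lnu2, evalIL, List.map_cons, List.map_nil, List.sum_cons, List.sum_nil, S2, Ax]
        push_cast
        ring
      rw [e] at hx
      have := cmul_nonpos (by norm_num) hx
      simp only [Ax] at this ⊢
      linarith
  · rcases le_total 0 u with hs | hs
    · have hx := hpl2 (u / (2 * (39117 / 312500 : ℝ))) (by positivity) (by rw [div_le_one (by norm_num)]; exact h1)
      have e : evalIL lpl2 (u / (2 * (39117 / 312500 : ℝ))) 0 = 76293945312500000000000000000000000000000000 * (-S2 u - Ax.e2 * (1 + u) ^ 2) := by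
        simp only [lpl2, evalIL, List.map_cons, List.map_nil, List.sum_cons, List.sum_nil, S2, Ax]
        push_cast
        ring
      rw [e] at hx
      have := cmul_nonpos (by norm_num) hx
      simp only [Ax] at this ⊢
      linarith
    · have hx := hnl2 (-u / (39117 / 312500 : ℝ)) (by apply div_nonneg <;> [linarith; norm_num]) (by rw [div_le_one (by norm_num)]; linarith)
      have e : evalIL lnl2 (-u / (39117 / 312500 : ℝ)) 0 = 2441406250000000000000000000000000000000000000 * (-S2 u - Ax.e2 * (1 + u) ^ 2) := by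
        simp only [lnl2, evalIL, List.map_cons, List.map_nil, List.sum_cons, List.sum_nil, S2, Ax]
        push_cast
        ring
      rw [e] at hx
      have := cmul_nonpos (by norm_num) hx
      simp only [Ax] at this ⊢
      linarith

/-- The quotient polynomial for `j = 3`. -/
noncomputable def S3 (u : ℝ) : ℝ :=
  (-767 / 2097152 : ℝ) * u ^ 0 + (-1507 / 8388608 : ℝ) * u ^ 1 + (2510553 / 16777216 : ℝ) * u ^ 2 + (-66947 / 8388608 : ℝ) * u ^ 3 + (-68716879 / 8388608 : ℝ) * u ^ 4 + (108751875 / 8388608 : ℝ) * u ^ 5 + (683250357 / 16777216 : ℝ) * u ^ 6 + (173865695 / 8388608 : ℝ) * u ^ 7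

/-- Certificate polynomial. -/
def lpu3 : List ITm := [⟨(-11294872592770843766629695892333984375000),0,0⟩,⟨(-4977899573896138463169336318969726562500),1,0⟩,⟨142032500389703930122777819633483886718750,2,0⟩,⟨(-2000382251672794930391013622283935546875),3,0⟩,⟨(-490993396935522887579143551635742187500000),4,0⟩,⟨194533541242197304717741016491699218750000,5,0⟩,⟨152986505595620085942149411462959220812500,6,0⟩,⟨19492281211108609640264113005487030964988,7,0⟩]

/-- Certificate tree. -/
def tpu3 : OutT := (A (A (O l) (A (A (O l) (O l)) (A (A (O l) (A (O l) (O l))) (A (A (O l) (O l)) (A (O l) (O l)))))) (A (A (A (A (O l) (O l)) (O l)) (A (O l) (O l))) (A (A (O l) (O l)) (A (O l) (A (O l) (A (O l) (A (O l) (O l))))))))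

theorem hpu3 (x : ℝ) (h0 : 0 ≤ x) (h1 : x ≤ 1) : evalIL lpu3 x 0 ≤ 0 :=
  uni_le 7 65536 lpu3 (by norm_num) (by norm_num) (by decide +kernel)
    (chkOut_sound (uniPb 7 65536 lpu3) tpu3 0 32768 0 32768 (by decide +kernel)) x h0 h1

/-- Certificate polynomial. -/
def lpl3 : List ITm := [⟨(-133553612613468430936336517333984375000),0,0⟩,⟨(-3605378785323409829288721084594726562500),1,0⟩,⟨(-144181313827000512974336743354797363281250),2,0⟩,⟨1821064629855770010061562061309814453125,3,0⟩,⟨490993396935522887579143551635742187500000,4,0⟩,⟨(-194533541242197304717741016491699218750000),5,0⟩,⟨(-152986505595620085942149411462959220812500),6,0⟩,⟨(-19492281211108609640264113005487030964988),7,0⟩]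

/-- Certificate tree. -/
def tpl3 : OutT := (A (A (A (A (A (O l) (O l)) (O l)) (O l)) (A (O l) (O l))) (A (A (O l) (A (O l) (O l))) (A (A (A (O l) (A (O l) (O l))) (A (A (O l) (A (O l) (O l))) (A (A (O l) (O l)) (A (O l) (O l))))) (A (A (A (O l) (O l)) (O l)) (A (O l) (O l))))))

theorem hpl3 (x : ℝ) (h0 : 0 ≤ x) (h1 : x ≤ 1) : evalIL lpl3 x 0 ≤ 0 :=
  uni_le 7 65536 lpl3 (by norm_num) (by norm_num) (by decide +kernel)
    (chkOut_sound (uniPb 7 65536 lpl3) tpl3 0 32768 0 32768 (by decide +kernel)) x h0 h1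

/-- Certificate polynomial. -/
def lnu3 : List ITm := [⟨(-361435922968667000532150268554687500000000),0,0⟩,⟨79646393182338215410709381103515625000000,1,0⟩,⟨1136260003117631440982222557067871093750000,2,0⟩,⟨8001529006691179721564054489135742187500,3,0⟩,⟨(-981986793871045775158287103271484375000000),4,0⟩,⟨(-194533541242197304717741016491699218750000),5,0⟩,⟨76493252797810042971074705731479610406250,6,0⟩,⟨(-4873070302777152410066028251371757741247),7,0⟩]

/-- Certificate tree. -/
def tnu3 : OutT := (A (O l) (A (A (O l) (A (O l) (A (O l) (O l)))) (A (A (A (O l) (O l)) (O l)) (O l))))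

theorem hnu3 (x : ℝ) (h0 : 0 ≤ x) (h1 : x ≤ 1) : evalIL lnu3 x 0 ≤ 0 :=
  uni_le 7 65536 lnu3 (by norm_num) (by norm_num) (by decide +kernel)
    (chkOut_sound (uniPb 7 65536 lnu3) tnu3 0 32768 0 32768 (by decide +kernel)) x h0 h1

/-- Certificate polynomial. -/
def lnl3 : List ITm := [⟨(-4273715603630989789962768554687500000000),0,0⟩,⟨57686060565174557268619537353515625000000,1,0⟩,⟨(-1153450510616004103794693946838378906250000),2,0⟩,⟨(-7284258519423080040246248245239257812500),3,0⟩,⟨981986793871045775158287103271484375000000,4,0⟩,⟨194533541242197304717741016491699218750000,5,0⟩,⟨(-76493252797810042971074705731479610406250),6,0⟩,⟨4873070302777152410066028251371757741247,7,0⟩]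

/-- Certificate tree. -/
def tnl3 : OutT := (A (A (A (A (O l) (O l)) (O l)) (O l)) (A (O l) (A (O l) (A (O l) (A (O l) (O l))))))

theorem hnl3 (x : ℝ) (h0 : 0 ≤ x) (h1 : x ≤ 1) : evalIL lnl3 x 0 ≤ 0 :=
  uni_le 7 65536 lnl3 (by norm_num) (by norm_num) (by decide +kernel)
    (chkOut_sound (uniPb 7 65536 lnl3) tnl3 0 32768 0 32768 (by decide +kernel)) x h0 h1

theorem apx3 (u : ℝ) (h0 : -(39117 / 312500 : ℝ) ≤ u) (h1 : u ≤ 2 * (39117 / 312500 : ℝ)) :
    |((1 + u)⁻¹) ^ 3 - evalZ Ax.p3 (3 * u) / Ax.D3| ≤ Ax.e3 * |u| ^ Ax.m3 := by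
  have hu : 0 < 1 + u := by norm_num at h0 ⊢; linarith
  refine apx_of_S 3 2 _ (S3 u) _ u hu ?_ ?_ ?_
  · simp only [Ax, evalZ_cons, evalZ_nil, S3]
    push_cast
    ring
  · rcases le_total 0 u with hs | hs
    · have hx := hpu3 (u / (2 * (39117 / 312500 : ℝ))) (by positivity) (by rw [div_le_one (by norm_num)]; exact h1)
      have e : evalIL lpu3 (u / (2 * (39117 / 312500 : ℝ))) 0 = 15258789062500000000000000000000000000000000 * (S3 u - Ax.e3 * (1 + u) ^ 3) := by
        simp only [lpu3, evalIL, List.map_cons, List.map_nil, List.sum_cons, List.sum_nil, S3, Ax]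
        push_cast
        ring
      rw [e] at hx
      have := cmul_nonpos (by norm_num) hx
      simp only [Ax] at this ⊢
      linarith
    · have hx := hnu3 (-u / (39117 / 312500 : ℝ)) (by apply div_nonneg <;> [linarith; norm_num]) (by rw [div_le_one (by norm_num)]; linarith)
      have e : evalIL lnu3 (-u / (39117 / 312500 : ℝ)) 0 = 488281250000000000000000000000000000000000000 * (S3 u - Ax.e3 * (1 + u) ^ 3) := by
        simp only [lnu3, evalIL, List.map_cons, List.map_nil, List.sum_cons, List.sum_nil, S3, Ax]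
        push_cast
        ring
      rw [e] at hx
      have := cmul_nonpos (by norm_num) hx
      simp only [Ax] at this ⊢
      linarith
  · rcases le_total 0 u with hs | hs
    · have hx := hpl3 (u / (2 * (39117 / 312500 : ℝ))) (by positivity) (by rw [div_le_one (by norm_num)]; exact h1)
      have e : evalIL lpl3 (u / (2 * (39117 / 312500 : ℝ))) 0 = 15258789062500000000000000000000000000000000 * (-S3 u - Ax.e3 * (1 + u) ^ 3) := by
        simp only [lpl3, evalIL, List.map_cons, List.map_nil, List.sum_cons, List.sum_nil, S3, Ax]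
        push_cast
        ring
      rw [e] at hx
      have := cmul_nonpos (by norm_num) hx
      simp only [Ax] at this ⊢
      linarith
    · have hx := hnl3 (-u / (39117 / 312500 : ℝ)) (by apply div_nonneg <;> [linarith; norm_num]) (by rw [div_le_one (by norm_num)]; linarith)
      have e : evalIL lnl3 (-u / (39117 / 312500 : ℝ)) 0 = 488281250000000000000000000000000000000000000 * (-S3 u - Ax.e3 * (1 + u) ^ 3) := by
        simp only [lnl3, evalIL, List.map_cons, List.map_nil, List.sum_cons, List.sum_nil, S3, Ax]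
        push_cast
        ring
      rw [e] at hx
      have := cmul_nonpos (by norm_num) hx
      simp only [Ax] at this ⊢
      linarith

/-- The quotient polynomial for `j = 4`. -/
noncomputable def S4 (u : ℝ) : ℝ :=
  (-17525 / 4194304 : ℝ) * u ^ 0 + (-3537353 / 16777216 : ℝ) * u ^ 1 + (8836901 / 16777216 : ℝ) * u ^ 2 + (4465365 / 262144 : ℝ) * u ^ 3 + (-211407637 / 8388608 : ℝ) * u ^ 4 + (-2239209001 / 16777216 : ℝ) * u ^ 5 + (-2282751607 / 16777216 : ℝ) * u ^ 6 + (-361529935 / 8388608 : ℝ) * u ^ 7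

/-- Certificate polynomial. -/
def lpu4 : List ITm := [⟨(-421457968968752538785338401794433593750000),0,0⟩,⟨(-1905203153651382308453321456909179687500000),1,0⟩,⟨896906776215785345993936061859130859375000,2,0⟩,⟨8138047727037832513694107532501220703125000,3,0⟩,⟨(-3022239291224092263473164857387542724609375),4,0⟩,⟨(-4005459736174046891071123587663222656250000),5,0⟩,⟨(-1022261277787275984828851477793444847875000),6,0⟩,⟨(-81063066055138903866976842760228013330808),7,0⟩]

/-- Certificate tree. -/
def tpu4 : OutT := (A (A (O l) (O l)) (A (A (O l) (A (O l) (A (O l) (A (O l) (O l))))) (A (A (A (A (O l) (O l)) (O l)) (A (O l) (O l))) (A (O l) (O l)))))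

theorem hpu4 (x : ℝ) (h0 : 0 ≤ x) (h1 : x ≤ 1) : evalIL lpu4 x 0 ≤ 0 :=
  uni_le 7 65536 lpu4 (by norm_num) (by norm_num) (by decide +kernel)
    (chkOut_sound (uniPb 7 65536 lpu4) tpu4 0 32768 0 32768 (by decide +kernel)) x h0 h1

/-- Certificate polynomial. -/
def lpl4 : List ITm := [⟨(-166435654591623460873961448669433593750000),0,0⟩,⟨1316489300907414872199296951293945312500000,1,0⟩,⟨(-1117982486082528778351843357086181640625000),2,0⟩,⟨(-8174945086154024099159896373748779296875000),3,0⟩,⟨3019929988829615357475300438022613525390625,4,0⟩,⟨4005459736174046891071123587663222656250000,5,0⟩,⟨1022261277787275984828851477793444847875000,6,0⟩,⟨81063066055138903866976842760228013330808,7,0⟩]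

/-- Certificate tree. -/
def tpl4 : OutT := (A (A (A (O l) (A (A (O l) (O l)) (A (O l) (O l)))) (A (A (O l) (O l)) (O l))) (A (A (O l) (O l)) (A (O l) (A (O l) (A (O l) (O l))))))

theorem hpl4 (x : ℝ) (h0 : 0 ≤ x) (h1 : x ≤ 1) : evalIL lpl4 x 0 ≤ 0 :=
  uni_le 7 65536 lpl4 (by norm_num) (by norm_num) (by decide +kernel)
    (chkOut_sound (uniPb 7 65536 lpl4) tpl4 0 32768 0 32768 (by decide +kernel)) x h0 h1

/-- Certificate polynomial. -/
def lnu4 : List ITm := [⟨(-6743327503500040620565414428710937500000000),0,0⟩,⟨15241625229211058467626571655273437500000000,1,0⟩,⟨3587627104863141383975744247436523437500000,2,0⟩,⟨(-16276095454075665027388215065002441406250000),3,0⟩,⟨(-3022239291224092263473164857387542724609375),4,0⟩,⟨2002729868087023445535561793831611328125000,5,0⟩,⟨(-255565319446818996207212869448361211968750),6,0⟩,⟨10132883256892362983372105345028501666351,7,0⟩]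

/-- Certificate tree. -/
def tnu4 : OutT := (A (A (O l) (A (O l) (O l))) (A (A (A (O l) (O l)) (A (A (O l) (O l)) (O l))) (A (O l) (O l))))

theorem hnu4 (x : ℝ) (h0 : 0 ≤ x) (h1 : x ≤ 1) : evalIL lnu4 x 0 ≤ 0 :=
  uni_le 7 65536 lnu4 (by norm_num) (by norm_num) (by decide +kernel)
    (chkOut_sound (uniPb 7 65536 lnu4) tnu4 0 32768 0 32768 (by decide +kernel)) x h0 h1

/-- Certificate polynomial. -/
def lnl4 : List ITm := [⟨(-2662970473465975373983383178710937500000000),0,0⟩,⟨(-10531914407259318977594375610351562500000000),1,0⟩,⟨(-4471929944330115113407373428344726562500000),2,0⟩,⟨16349890172308048198319792747497558593750000,3,0⟩,⟨3019929988829615357475300438022613525390625,4,0⟩,⟨(-2002729868087023445535561793831611328125000),5,0⟩,⟨255565319446818996207212869448361211968750,6,0⟩,⟨(-10132883256892362983372105345028501666351),7,0⟩]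

/-- Certificate tree. -/
def tnl4 : OutT := (A (O l) (A (O l) (A (O l) (A (O l) (O l)))))

theorem hnl4 (x : ℝ) (h0 : 0 ≤ x) (h1 : x ≤ 1) : evalIL lnl4 x 0 ≤ 0 :=
  uni_le 7 65536 lnl4 (by norm_num) (by norm_num) (by decide +kernel)
    (chkOut_sound (uniPb 7 65536 lnl4) tnl4 0 32768 0 32768 (by decide +kernel)) x h0 h1

theorem apx4 (u : ℝ) (h0 : -(39117 / 312500 : ℝ) ≤ u) (h1 : u ≤ 2 * (39117 / 312500 : ℝ)) :
    |((1 + u)⁻¹) ^ 4 - evalZ Ax.p4 (3 * u) / Ax.D4| ≤ Ax.e4 * |u| ^ Ax.m4 := by
  have hu : 0 < 1 + u := by norm_num at h0 ⊢; linarith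
  refine apx_of_S 4 2 _ (S4 u) _ u hu ?_ ?_ ?_
  · simp only [Ax, evalZ_cons, evalZ_nil, S4]
    push_cast
    ring
  · rcases le_total 0 u with hs | hs
    · have hx := hpu4 (u / (2 * (39117 / 312500 : ℝ))) (by positivity) (by rw [div_le_one (by norm_num)]; exact h1)
      have e : evalIL lpu4 (u / (2 * (39117 / 312500 : ℝ))) 0 = 30517578125000000000000000000000000000000000 * (S4 u - Ax.e4 * (1 + u) ^ 4) := by
        simp only [lpu4, evalIL, List.map_cons, List.map_nil, List.sum_cons, List.sum_nil, S4, Ax]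
        push_cast
        ring
      rw [e] at hx
      have := cmul_nonpos (by norm_num) hx
      simp only [Ax] at this ⊢
      linarith
    · have hx := hnu4 (-u / (39117 / 312500 : ℝ)) (by apply div_nonneg <;> [linarith; norm_num]) (by rw [div_le_one (by norm_num)]; linarith)
      have e : evalIL lnu4 (-u / (39117 / 312500 : ℝ)) 0 = 488281250000000000000000000000000000000000000 * (S4 u - Ax.e4 * (1 + u) ^ 4) := by
        simp only [lnu4, evalIL, List.map_cons, List.map_nil, List.sum_cons, List.sum_nil, S4, Ax]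
        push_cast
        ring
      rw [e] at hx
      have := cmul_nonpos (by norm_num) hx
      simp only [Ax] at this ⊢
      linarith
  · rcases le_total 0 u with hs | hs
    · have hx := hpl4 (u / (2 * (39117 / 312500 : ℝ))) (by positivity) (by rw [div_le_one (by norm_num)]; exact h1)
      have e : evalIL lpl4 (u / (2 * (39117 / 312500 : ℝ))) 0 = 30517578125000000000000000000000000000000000 * (-S4 u - Ax.e4 * (1 + u) ^ 4) := by
        simp only [lpl4, evalIL, List.map_cons, List.map_nil, List.sum_cons, List.sum_nil, S4, Ax]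
        push_cast
        ring
      rw [e] at hx
      have := cmul_nonpos (by norm_num) hx
      simp only [Ax] at this ⊢
      linarith
    · have hx := hnl4 (-u / (39117 / 312500 : ℝ)) (by apply div_nonneg <;> [linarith; norm_num]) (by rw [div_le_one (by norm_num)]; linarith)
      have e : evalIL lnl4 (-u / (39117 / 312500 : ℝ)) 0 = 488281250000000000000000000000000000000000000 * (-S4 u - Ax.e4 * (1 + u) ^ 4) := by
        simp only [lnl4, evalIL, List.map_cons, List.map_nil, List.sum_cons, List.sum_nil, S4, Ax]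
        push_cast
        ring
      rw [e] at hx
      have := cmul_nonpos (by norm_num) hx
      simp only [Ax] at this ⊢
      linarith

/-- The quotient polynomial for `j = 5`. -/
noncomputable def S5 (u : ℝ) : ℝ :=
  (-90037 / 8388608 : ℝ) * u ^ 0 + (-8779449 / 16777216 : ℝ) * u ^ 1 + (7853291 / 8388608 : ℝ) * u ^ 2 + (719622655 / 16777216 : ℝ) * u ^ 3 + (-227688175 / 8388608 : ℝ) * u ^ 4 + (-6393137819 / 16777216 : ℝ) * u ^ 5 + (-5210414307 / 8388608 : ℝ) * u ^ 6 + (-6759835243 / 16777216 : ℝ) * u ^ 7 + (-199778577 / 2097152 : ℝ) * u ^ 8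

/-- Certificate polynomial. -/
def lpu5 : List ITm := [⟨(-1635987834092134107777383178472518920898437500000),0,0⟩,⟨(-7654071222187610601395135745406150817871093750000),1,0⟩,⟨2093261556746810532786184921860694885253906250000,2,0⟩,⟨31915223918611605541017022915184497833251953125000,3,0⟩,⟨(-5106046566649894470286148233339190483093261718750),4,0⟩,⟨(-17869759213870485615680457481845286846160888671875),5,0⟩,⟨(-7291645271081015076673652471818544954296875000000),6,0⟩,⟨(-1184145051383255752261347678831082487050548750000),7,0⟩,⟨(-70089540004752586455941833422437701320818576448),8,0⟩]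

/-- Certificate tree. -/
def tpu5 : OutT := (A (A (O l) (O l)) (A (A (O l) (A (O l) (A (O l) (A (O l) (O l))))) (A (A (A (A (O l) (O l)) (O l)) (A (O l) (O l))) (A (O l) (O l)))))

theorem hpu5 (x : ℝ) (h0 : 0 ≤ x) (h1 : x ≤ 1) : evalIL lpu5 x 0 ≤ 0 :=
  uni_le 8 65536 lpu5 (by norm_num) (by norm_num) (by decide +kernel)
    (chkOut_sound (uniPb 8 65536 lpu5) tpu5 0 32768 0 32768 (by decide +kernel)) x h0 h1

/-- Certificate polynomial. -/
def lpl5 : List ITm := [⟨(-612385653298019860812928527593612670898437500000),0,0⟩,⟨4839683199587909712136024609208106994628906250000,1,0⟩,⟨(-3502418885131226528756087645888328552246093750000),2,0⟩,⟨(-32268004764783850024308892898261547088623046875000),3,0⟩,⟨5061887435898791470436778383329510688781738281250,4,0⟩,⟨17867548176791969268742719497304066181182861328125,5,0⟩,⟨7291645271081015076673652471818544954296875000000,6,0⟩,⟨1184145051383255752261347678831082487050548750000,7,0⟩,⟨70089540004752586455941833422437701320818576448,8,0⟩]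

/-- Certificate tree. -/
def tpl5 : OutT := (A (A (A (O l) (A (A (O l) (O l)) (A (O l) (O l)))) (A (A (O l) (O l)) (O l))) (A (A (O l) (O l)) (A (O l) (A (O l) (A (O l) (O l))))))

theorem hpl5 (x : ℝ) (h0 : 0 ≤ x) (h1 : x ≤ 1) : evalIL lpl5 x 0 ≤ 0 :=
  uni_le 8 65536 lpl5 (by norm_num) (by norm_num) (by decide +kernel)
    (chkOut_sound (uniPb 8 65536 lpl5) tpl5 0 32768 0 32768 (by decide +kernel)) x h0 h1

/-- Certificate polynomial. -/
def lnu5 : List ITm := [⟨(-52351610690948291448876261711120605468750000000000),0,0⟩,⟨122465139555001769622322171926498413085937500000000,1,0⟩,⟨16746092453974484262289479374885559082031250000000,2,0⟩,⟨(-127660895674446422164068091660737991333007812500000),3,0⟩,⟨(-10212093133299788940572296466678380966186523437500),4,0⟩,⟨17869759213870485615680457481845286846160888671875,5,0⟩,⟨(-3645822635540507538336826235909272477148437500000),6,0⟩,⟨296036262845813938065336919707770621762637187500,7,0⟩,⟨(-8761192500594073306992729177804712665102322056),8,0⟩]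

/-- Certificate tree. -/
def tnu5 : OutT := (A (A (O l) (A (O l) (O l))) (A (A (A (O l) (A (O l) (O l))) (A (A (O l) (O l)) (O l))) (A (O l) (O l))))

theorem hnu5 (x : ℝ) (h0 : 0 ≤ x) (h1 : x ≤ 1) : evalIL lnu5 x 0 ≤ 0 :=
  uni_le 8 65536 lnu5 (by norm_num) (by norm_num) (by decide +kernel)
    (chkOut_sound (uniPb 8 65536 lnu5) tnu5 0 32768 0 32768 (by decide +kernel)) x h0 h1

/-- Certificate polynomial. -/
def lnl5 : List ITm := [⟨(-19596340905536635546013712882995605468750000000000),0,0⟩,⟨(-77434931193406555394176393747329711914062500000000),1,0⟩,⟨(-28019351081049812230048701167106628417968750000000),2,0⟩,⟨129072019059135400097235571593046188354492187500000,3,0⟩,⟨10123774871797582940873556766659021377563476562500,4,0⟩,⟨(-17867548176791969268742719497304066181182861328125),5,0⟩,⟨3645822635540507538336826235909272477148437500000,6,0⟩,⟨(-296036262845813938065336919707770621762637187500),7,0⟩,⟨8761192500594073306992729177804712665102322056,8,0⟩]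

/-- Certificate tree. -/
def tnl5 : OutT := (A (O l) (A (O l) (A (O l) (A (O l) (A (O l) (O l))))))

theorem hnl5 (x : ℝ) (h0 : 0 ≤ x) (h1 : x ≤ 1) : evalIL lnl5 x 0 ≤ 0 :=
  uni_le 8 65536 lnl5 (by norm_num) (by norm_num) (by decide +kernel)
    (chkOut_sound (uniPb 8 65536 lnl5) tnl5 0 32768 0 32768 (by decide +kernel)) x h0 h1

theorem apx5 (u : ℝ) (h0 : -(39117 / 312500 : ℝ) ≤ u) (h1 : u ≤ 2 * (39117 / 312500 : ℝ)) :
    |((1 + u)⁻¹) ^ 5 - evalZ Ax.p5 (3 * u) / Ax.D5| ≤ Ax.e5 * |u| ^ Ax.m5 := by
  have hu : 0 < 1 + u := by norm_num at h0 ⊢; linarith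
  refine apx_of_S 5 2 _ (S5 u) _ u hu ?_ ?_ ?_
  · simp only [Ax, evalZ_cons, evalZ_nil, S5]
    push_cast
    ring
  · rcases le_total 0 u with hs | hs
    · have hx := hpu5 (u / (2 * (39117 / 312500 : ℝ))) (by positivity) (by rw [div_le_one (by norm_num)]; exact h1)
      have e : evalIL lpu5 (u / (2 * (39117 / 312500 : ℝ))) 0 = 47683715820312500000000000000000000000000000000000 * (S5 u - Ax.e5 * (1 + u) ^ 5) := by
        simp only [lpu5, evalIL, List.map_cons, List.map_nil, List.sum_cons, List.sum_nil, S5, Ax]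
        push_cast
        ring
      rw [e] at hx
      have := cmul_nonpos (by norm_num) hx
      simp only [Ax] at this ⊢
      linarith
    · have hx := hnu5 (-u / (39117 / 312500 : ℝ)) (by apply div_nonneg <;> [linarith; norm_num]) (by rw [div_le_one (by norm_num)]; linarith)
      have e : evalIL lnu5 (-u / (39117 / 312500 : ℝ)) 0 = 1525878906250000000000000000000000000000000000000000 * (S5 u - Ax.e5 * (1 + u) ^ 5) := by
        simp only [lnu5, evalIL, List.map_cons, List.map_nil, List.sum_cons, List.sum_nil, S5, Ax]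
        push_cast
        ring
      rw [e] at hx
      have := cmul_nonpos (by norm_num) hx
      simp only [Ax] at this ⊢
      linarith
  · rcases le_total 0 u with hs | hs
    · have hx := hpl5 (u / (2 * (39117 / 312500 : ℝ))) (by positivity) (by rw [div_le_one (by norm_num)]; exact h1)
      have e : evalIL lpl5 (u / (2 * (39117 / 312500 : ℝ))) 0 = 47683715820312500000000000000000000000000000000000 * (-S5 u - Ax.e5 * (1 + u) ^ 5) := by
        simp only [lpl5, evalIL, List.map_cons, List.map_nil, List.sum_cons, List.sum_nil, S5, Ax]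
        push_cast
        ring
      rw [e] at hx
      have := cmul_nonpos (by norm_num) hx
      simp only [Ax] at this ⊢
      linarith
    · have hx := hnl5 (-u / (39117 / 312500 : ℝ)) (by apply div_nonneg <;> [linarith; norm_num]) (by rw [div_le_one (by norm_num)]; linarith)
      have e : evalIL lnl5 (-u / (39117 / 312500 : ℝ)) 0 = 1525878906250000000000000000000000000000000000000000 * (-S5 u - Ax.e5 * (1 + u) ^ 5) := by
        simp only [lnl5, evalIL, List.map_cons, List.map_nil, List.sum_cons, List.sum_nil, S5, Ax]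
        push_cast
        ring
      rw [e] at hx
      have := cmul_nonpos (by norm_num) hx
      simp only [Ax] at this ⊢
      linarith

theorem hAx : Ax.OK (-(39117 / 312500 : ℝ)) (2 * (39117 / 312500 : ℝ)) where
  e10 := by simp only [Ax]; norm_num
  e20 := by simp only [Ax]; norm_num
  e30 := by simp only [Ax]; norm_num
  e40 := by simp only [Ax]; norm_num
  e50 := by simp only [Ax]; norm_num
  h1 := fun u a b => by simpa using apx1 u a b
  h2 := apx2
  h3 := apx3
  h4 := apx4
  h5 := apx5

end Vale.Agent.P154.D8.K6
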