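import Vale.Agent.P154.D8.K6.Data
import Vale.Agent.P154.Check2

namespace Vale.Agent.P154.D8.K6

open Cert

/-- Chart (0, 0). -/
def P00 : Pb := chartPb false false Nd w G []

/-- Chart (0, 1). -/
def P01 : Pb := chartPb false true Nd w G []

/-- Chart (1, 0). -/
def P10 : Pb := chartPb true false Nd w G []

/-- Chart (1, 1). -/
def P11 : Pb := chartPb true true Nd w G []

/-- The offset. -/
def KK : ℕ := 2113178124542660985409359139666066426075389304144486088511842836106695610226899437897669023550628751578697579973028514715529390238010742149002155913851758307633546735996020336674926070705705764212096931632844753616592113171006246955353587595068145905958154323590951993344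

end Vale.Agent.P154.D8.K6
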